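import Mathlib

/-! # P091: the common frame (integrator helper74)

* `Q1` : the literal question;
* `P_A` : one inequality which implies it (helper253);
* `HEAVY` : the T block, a finite statement in the integer model;
* vocabulary of the dyadic tree on `{0, …, 2^n - 1}`. -/

open MeasureTheory AddCircle Filter Topology Finset

namespace Vale.Agent.P091.Spec

/-! ## the question -/

/-- the symmetric partial sums -/
noncomputable def SN {T : ℝ} [Fact (0 < T)] (f : AddCircle T → ℂ) (N : ℕ) (x : AddCircle T) : ℂ :=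
  ∑ k ∈ Icc (-(N : ℤ)) (N : ℤ), fourierCoeff f k * fourier k x

/-- almost everywhere convergence in `L log L` -/
def Q1 : Prop := ∀ (T : ℝ) [Fact (0 < T)] (f : AddCircle T → ℂ),
  AEStronglyMeasurable f haarAddCircle →
  Integrable (fun x => ‖f x‖ * Real.log (2 + ‖f x‖)) haarAddCircle →
  ∀ᵐ x ∂(haarAddCircle (T := T)), Tendsto (fun N : ℕ => SN f N x) atTop (𝓝 (f x))

/-- the inequality (A): `∫_{Mf ≤ (log D)²} S^* f ≤ C D` for `0 ≤ f ≤ e^D`, `∫ f ≤ 1` -/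
def P_A : Prop := ∃ C : ℝ, ∀ (T : ℝ) [Fact (0 < T)] (D : ℝ) (f : AddCircle T → ℝ), 2 ≤ D →
  Measurable f → (∀ x, 0 ≤ f x) → (∀ x, f x ≤ Real.exp D) →
  ∫ x, f x ∂(haarAddCircle (T := T)) ≤ 1 →
  ∃ E : Set (AddCircle T), MeasurableSet E ∧
    (haarAddCircle E).toReal ≤ C / Real.log D ^ 2 ∧
    ∀ N0 : ℕ, ∫ x in Eᶜ, (range (N0 + 1)).sup' nonempty_range_add_one
      (fun N => ‖SN (fun x => (f x : ℂ)) N x‖) ∂(haarAddCircle (T := T)) ≤ C * D

/-! ## the integer model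

Leaves `i < 2^n`; the node `(j, a)`, `j ≤ n`, `a < 2^j`, is the set of the `2^(n-j)` consecutive
integers `[a 2^(n-j), (a+1) 2^(n-j))`; its children are `(j+1, 2a)`, `(j+1, 2a+1)`. -/

/-- `e(t) = exp(2πit)` -/
noncomputable def e (t : ℝ) : ℂ := Complex.exp (2 * Real.pi * Complex.I * t)

/-- the leaves of a node -/
def nd (n j a : ℕ) : Finset ℕ := Ico (a * 2 ^ (n - j)) ((a + 1) * 2 ^ (n - j))

/-- the node of level `j` which contains the leaf `i` -/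
def anc (n j i : ℕ) : ℕ := i / 2 ^ (n - j)

/-- average over a node -/
noncomputable def av (n j a : ℕ) (F : ℕ → ℝ) : ℝ := (∑ i ∈ nd n j a, F i) / 2 ^ (n - j)

/-- average over a node, complex -/
noncomputable def avC (n j a : ℕ) (F : ℕ → ℂ) : ℂ := (∑ i ∈ nd n j a, F i) / 2 ^ (n - j)

/-- `B_ξ(v)`, the average of `p(y) e(-ξ y)` over the node `v = (j, a)` -/
noncomputable def BB (n : ℕ) (p : ℕ → ℝ) (ξ : ℝ) (j a : ℕ) : ℂ :=
  avC n j a fun i => (p i : ℂ) * e (-(ξ * i))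

/-- half the difference over the two children -/
noncomputable def dB (n : ℕ) (p : ℕ → ℝ) (ξ : ℝ) (j a : ℕ) : ℂ :=
  (BB n p ξ (j + 1) (2 * a) - BB n p ξ (j + 1) (2 * a + 1)) / 2

/-- the sign pattern `(+,-,-,+)` on the four grandchildren (levels `j` with `j + 2 ≤ n`) -/
def sg (n j i : ℕ) : ℝ := if (i / 2 ^ (n - j - 2)) % 4 = 0 ∨ (i / 2 ^ (n - j - 2)) % 4 = 3 then 1
  else -1

/-- the data of the heavy part: classes `k` with start node `(js k, as k)` and letter `ξ k`;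
`a k i` is the fraction of the leaf `i` which belongs to the class `k`, `A k i` its weighted
version (phases, alive part, good part). -/
structure HData (C0 D : ℝ) (n : ℕ) (ι : Type) [Fintype ι] where
  p : ℕ → ℝ
  js : ι → ℕ
  ac : ι → ℕ
  ξ : ι → ℝ
  a : ι → ℕ → ℝ
  A : ι → ℕ → ℂ
  p_nonneg : ∀ i, 0 ≤ p i
  p_le : ∀ i, p i ≤ Real.exp D
  p_avg : av n 0 0 p ≤ 1
  js_le : ∀ k, js k ≤ n
  ac_lt : ∀ k, ac k < 2 ^ js k
  a_nonneg : ∀ k i, 0 ≤ a k i
  a_sum : ∀ i, ∑ k, a k i ≤ 1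
  a_supp : ∀ k i, a k i ≠ 0 → i ∈ nd n (js k) (ac k)
  a_mass : ∀ k, Real.exp (-(C0 * D)) ≤ av n (js k) (ac k) (a k)
  A_le : ∀ k i, ‖A k i‖ ≤ a k i
  alive : ∀ k i, A k i ≠ 0 → ∀ j ≤ n, av n j (anc n j i) p ≤ Real.log D ^ 2

/-- the bilinear form of the heavy part: levels `js k + 3 ≤ j ≤ n - 2` -/
noncomputable def HData.gain {C0 D : ℝ} {n : ℕ} {ι : Type} [Fintype ι] (d : HData C0 D n ι) : ℂ :=
  ∑ k, ∑ j ∈ Ico (d.js k + 3) (n - 1),
    (∑ i ∈ range (2 ^ n), d.A k i * sg n j i * dB n d.p (d.ξ k) j (anc n j i)) / 2 ^ n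

/-- **T block.** -/
def HEAVY : Prop := ∀ C0 : ℝ, 0 ≤ C0 → ∃ C : ℝ, ∀ (D : ℝ) (n : ℕ) (ι : Type) [Fintype ι]
  (d : HData C0 D n ι), 2 ≤ D → ‖d.gain‖ ≤ C * D

end Vale.Agent.P091.Spec
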