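import Vale.Agent.P091.T.Props
import Vale.Agent.P091.T.H880.T1
import Vale.Agent.P091.T.H34.PTriv
import Vale.Agent.P091.T.H522.CutMain
import Vale.Agent.P091.T.H453.PHull
import Vale.Agent.P091.T.H103.PE1
import Vale.Agent.P091.T.H17.PBell
import Vale.Agent.P091.TOP.H663.Outer
import Vale.Agent.P091.H34.Final

/-!
# P091: the assembly (integrator helper74)

`heavy` : the one-grid inequality (T block, rows P_T1 880, P_CUT 522, P_E1 103, P_TRIV 34,
P_HULL 453, P_BELL 17); `pgrid` : the grid inequality (outer line, 663); `final` : almost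
everywhere convergence of Fourier series on `L log L` and the weak type estimate.
-/

open MeasureTheory AddCircle Filter Topology

namespace Vale.Agent.P091.H74

open Vale.Agent.P091

theorem heavy : Spec.HEAVY :=
  T.heavy_of T.H880.t1 T.H522.p_cut T.H103.p_E1 (T.H34.p_triv H413.lemmaE) T.H453.p_hull
    T.H17.p_bell

theorem pgrid : H253.PGRID := TOP.H663.outer heavy

end Vale.Agent.P091.H74
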